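import Vale.Agent.P062.B.Game
import Vale.Agent.P062.Reduction

/-!
# Basic facts on the bounded versions of the game
-/

namespace Vale.Agent.P062

theorem MakerWinsIn.mono {S : Set Cell} {n : ℕ} {M B : Finset Cell} (h : MakerWinsIn S n M B) :
    ∀ n', n ≤ n' → MakerWinsIn S n' M B := by
  induction h with
  | done n M B A hA hsub => exact fun n' _ => .done _ _ _ A hA hsub
  | move n M B c hS hM hB h ih =>
    intro n' hn
    obtain ⟨k, rfl⟩ : ∃ k, n' = k + 1 := ⟨n' - 1, by omega⟩
    exact .move k M B c hS hM hB (fun d h1 h2 => ih d h1 h2 k (by omega))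

theorem MakerWinsIn.toMakerWins {S : Set Cell} {n : ℕ} {M B : Finset Cell}
    (h : MakerWinsIn S n M B) : MakerWins M B := by
  induction h with
  | done n M B A hA hsub => exact .done _ _ A hA hsub
  | move n M B c hS hM hB h ih => exact .move M B c hM hB ih

/-- Transport along a bijection of the board that preserves allowed copies. -/
theorem MakerWinsIn.image' {S S' : Set Cell} (g g' : Cell → Cell) (h1 : ∀ x, g' (g x) = x)
    (h2 : ∀ x, g (g' x) = x) (hcopy : ∀ A, IsCopy A → IsCopy (A.image g))
    (hS : ∀ c ∈ S, g c ∈ S') {n : ℕ} {M B : Finset Cell} (h : MakerWinsIn S n M B) :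
    MakerWinsIn S' n (M.image g) (B.image g) := by
  have hinj : Function.Injective g := fun x y hxy => by rw [← h1 x, ← h1 y, hxy]
  induction h with
  | done n M B A hA hsub =>
    exact .done _ _ _ (A.image g) (hcopy A hA) (Finset.image_subset_image hsub)
  | move n M B c hc hM hB h ih =>
    refine .move _ _ _ (g c) (hS c hc) ?_ ?_ ?_
    · rwa [hinj.mem_finset_image]
    · rwa [hinj.mem_finset_image]
    · intro d hd1 hd2
      have e : d = g (g' d) := (h2 d).symm
      have k1 : g' d ∉ insert c M := by
        intro hmem
        apply hd1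
        rw [e, ← Finset.image_insert]
        exact Finset.mem_image_of_mem g hmem
      have k2 : g' d ∉ B := by
        intro hmem
        apply hd2
        rw [e]
        exact Finset.mem_image_of_mem g hmem
      have k3 := ih (g' d) k1 k2
      rw [Finset.image_insert, Finset.image_insert, h2 d] at k3
      exact k3

/-- A win on the infinite board that only uses cells of a finite board is a win on that board. -/
theorem MakerWinsIn.toOn {S : Set Cell} {Bd : Finset Cell} (hS : ∀ c ∈ S, c ∈ Bd) {n : ℕ}
    {M B : Finset Cell} (h : MakerWinsIn S n M B) : MakerWinsOn Bd M B := by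
  induction h with
  | done n M B A hA hsub => exact .done _ _ A hA hsub
  | move n M B c hc hM hB h ih =>
    refine .move M B c (hS c hc) hM hB ?_ (fun d _ k1 k2 => ih d k1 k2)
    intro hfull
    obtain ⟨d0, hd0⟩ := Infinite.exists_notMem_finset (Bd ∪ insert c M ∪ B)
    simp only [Finset.mem_union, not_or] at hd0
    obtain ⟨⟨_, k1⟩, k2⟩ := hd0
    cases h d0 k1 k2 with
    | done _ _ _ A hA hsub => exact ⟨A, hA, hsub⟩
    | move _ _ _ c' hc' hM' hB' _ =>
      exfalso
      rcases hfull c' (hS c' hc') with k | k
      · exact hM' k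
      · exact hB' (Finset.mem_insert_of_mem k)

end Vale.Agent.P062
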