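import Vale.Agent.P062.B.Basic
import Vale.Agent.P062.Step

/-!
# The checker: bounds on the number of moves and on the cells used
-/

namespace Vale.Agent.P062

/-- The largest number of Maker moves on a branch of a tree of the list. -/
def dep : T → ℕ
  | .nil => 0
  | .leaf _ _ rest => max 1 (dep rest)
  | .cons _ alts rest => max (dep alts + 1) (dep rest)

/-- The cells of the coding window. -/
def win : Set Cell := {c | -11 ≤ c.1 ∧ c.1 ≤ 12 ∧ -11 ≤ c.2 ∧ c.2 ≤ 12}

theorem cellOf_mem_win {c : ℕ} (h : c < N) : cellOf c ∈ win := by
  simp only [win, cellOf, W, off, N, Set.mem_ofPred_eq] at *
  omega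

/-- Soundness of the checker: if Breaker's earlier cells `B` avoid the union of the supports and
his last cell `d` avoids their intersection, then Maker wins. -/
theorem chk_soundB : ∀ (l : T) (m I U : ℕ), chk l m = some (I, U) → ∀ (M B : Finset Cell) (d : Cell),
    Rep m M → (∀ i, U.testBit i = true → cellOf i ∉ B) → (∀ i, I.testBit i = true → cellOf i ≠ d) →
    I ≠ full → MakerWinsIn win (dep l) M (insert d B) := by
  intro l
  induction l with
  | nil =>
    intro m I U h M B d _ _ _ hne
    simp only [chk, Option.some.injEq, Prod.mk.injEq] at h
    exact absurd h.1.symm hne
  | leaf c h rest ih =>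
    intro m I U hh M B d hrep hU hI hne
    simp only [chk] at hh
    split at hh
    · rename_i hcond
      simp only [Bool.and_eq_true, decide_eq_true_eq, Bool.not_eq_true'] at hcond
      obtain ⟨⟨hcN, hcm⟩, hcopy⟩ := hcond
      cases hr : chk rest m with
      | none => simp [hr] at hh
      | some p =>
        obtain ⟨I', U'⟩ := p
        simp only [hr, Option.some.injEq, Prod.mk.injEq] at hh
        obtain ⟨hI', hU'⟩ := hh
        by_cases hd : cellOf c = d
        · -- the tree is hit by `d`: use the rest
          have hIc : I'.testBit c = false := by
            by_contra hcon
            have hcon' : I'.testBit c = true := by simpa using hcon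
            apply hI c _ hd
            rw [← hI', Nat.testBit_and, hcon', testBit_one_shiftLeft]
            simp
          refine (ih m I' U' hr M B d hrep ?_ ?_ ?_).mono _ (by simp only [dep]; exact le_max_right _ _)
          · intro i hi
            apply hU i
            rw [← hU', Nat.testBit_or, hi]; simp
          · intro i hi hid
            have : i = c := cellOf_injective (hid.trans hd.symm)
            rw [this, hIc] at hi
            exact absurd hi (by simp)
          · intro hfull
            rw [hfull, full_testBit hcN] at hIc
            exact absurd hIc (by simp)
        · -- Maker plays `c` and wins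
          have hcM : cellOf c ∉ M := by
            intro hmem
            have := (hrep c).mpr hmem
            rw [hcm] at this
            exact absurd this (by simp)
          have hcB : cellOf c ∉ insert d B := by
            rw [Finset.mem_insert, not_or]
            refine ⟨hd, hU c ?_⟩
            rw [← hU', Nat.testBit_or, testBit_one_shiftLeft]; simp
          refine (MakerWinsIn.move 0 M _ (cellOf c) (cellOf_mem_win hcN) hcM hcB ?_).mono _
            (by simp only [dep]; exact le_max_left _ _)
          intro d' _ _
          obtain ⟨A, hA, hsub⟩ := copyOK_sound (hrep.insert c) hcopy
          exact MakerWinsIn.done _ _ _ A hA hsub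
    · simp at hh
  | cons c alts rest iha ihr =>
    intro m I U hh M B d hrep hU hI hne
    simp only [chk] at hh
    split at hh
    · rename_i hcond
      simp only [Bool.and_eq_true, decide_eq_true_eq, Bool.not_eq_true'] at hcond
      obtain ⟨hcN, hcm⟩ := hcond
      cases ha : chk alts (m ||| (1 <<< c)) with
      | none => simp [ha] at hh
      | some p =>
        obtain ⟨I1, U1⟩ := p
        simp only [ha] at hh
        split at hh
        · rename_i hI1
          cases hr : chk rest m with
          | none => simp [hr] at hh
          | some p =>
            obtain ⟨I', U'⟩ := p
            simp only [hr, Option.some.injEq, Prod.mk.injEq] at hh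
            obtain ⟨hI', hU'⟩ := hh
            by_cases hd : ∃ j, (U1 ||| (1 <<< c)).testBit j = true ∧ cellOf j = d
            · obtain ⟨j, hj, hjd⟩ := hd
              have hjN : j < N := by
                rw [Nat.testBit_or, testBit_one_shiftLeft, Bool.or_eq_true, decide_eq_true_eq] at hj
                rcases hj with hj | hj
                · exact chk_union_lt alts _ I1 U1 ha j hj
                · rw [hj]; exact hcN
              have hIj : I'.testBit j = false := by
                by_contra hcon
                have hcon' : I'.testBit j = true := by simpa using hcon
                apply hI j _ hjd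
                rw [← hI', Nat.testBit_and, hcon', hj]
                simp
              refine (ihr m I' U' hr M B d hrep ?_ ?_ ?_).mono _
                (by simp only [dep]; exact le_max_right _ _)
              · intro i hi
                apply hU i
                rw [← hU', Nat.testBit_or, hi]; simp
              · intro i hi hid
                have : i = j := cellOf_injective (hid.trans hjd.symm)
                rw [this, hIj] at hi
                exact absurd hi (by simp)
              · intro hfull
                rw [hfull, full_testBit hjN] at hIj
                exact absurd hIj (by simp)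
            · have hd : ∀ i, (U1 ||| (1 <<< c)).testBit i = true → cellOf i ≠ d :=
                fun i hi hid => hd ⟨i, hi, hid⟩
              have hcM : cellOf c ∉ M := by
                intro hmem
                have := (hrep c).mpr hmem
                rw [hcm] at this
                exact absurd this (by simp)
              have hZB : ∀ i, (U1 ||| (1 <<< c)).testBit i = true → cellOf i ∉ insert d B := by
                intro i hi
                rw [Finset.mem_insert, not_or]
                refine ⟨hd i hi, hU i ?_⟩
                rw [← hU', Nat.testBit_or, hi]; simp
              have hcB : cellOf c ∉ insert d B := by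
                apply hZB c
                rw [Nat.testBit_or, testBit_one_shiftLeft]; simp
              refine (MakerWinsIn.move (dep alts) M _ (cellOf c) (cellOf_mem_win hcN) hcM hcB ?_).mono _
                (by simp only [dep]; exact le_max_left _ _)
              intro d' _ _
              apply iha _ I1 U1 ha _ _ d' (hrep.insert c)
              · intro i hi
                apply hZB i
                rw [Nat.testBit_or, hi]; simp
              · intro i hi
                rw [hI1] at hi
                simp at hi
              · rw [hI1]
                intro hfull
                have h0 := full_testBit (i := 0) (by unfold N; omega)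
                rw [← hfull] at h0
                simp at h0
        · simp at hh
    · simp at hh

/-- Maker (to move) wins the position coded by the masks `m`, `b` within `n` moves in the window. -/
def MWB (n m b : ℕ) : Prop := ∀ M B : Finset Cell, Rep m M → Rep b B → MakerWinsIn win n M B

/-- Maker wins within `n` moves after each of the listed replies of Breaker. -/
def AllHardB (n : ℕ) : List ℕ → ℕ → ℕ → Prop
  | [], _, _ => True
  | i :: L, m, b => MWB n m (b ||| (1 <<< i)) ∧ AllHardB n L m b

theorem allHardB_of_testBit (n : ℕ) : ∀ (L : List ℕ) (m b i : ℕ), AllHardB n L m b →
    (maskOf L).testBit i = true → MWB n m (b ||| (1 <<< i)) := by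
  intro L
  induction L with
  | nil =>
    intro m b i _ hi
    simp [maskOf] at hi
  | cons j L ih =>
    intro m b i h hi
    rw [maskOf, Nat.testBit_or, testBit_one_shiftLeft, Bool.or_eq_true, decide_eq_true_eq] at hi
    rcases hi with hi | hi
    · rw [hi]; exact h.1
    · exact ih m b i h.2 hi

theorem MWB.mono {n n' m b : ℕ} (h : MWB n m b) (hn : n ≤ n') : MWB n' m b :=
  fun M B hM hB => (h M B hM hB).mono _ hn

/-- The bounded version of `step`. -/
theorem stepB (n : ℕ) (l : T) (m b c I U : ℕ) (hard : List ℕ)
    (h : chk l (m ||| (1 <<< c)) = some (I, U)) (hdep : dep l ≤ n) (hcN : c < N)
    (hcm : m.testBit c = false) (hcb : b.testBit c = false)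
    (hU : U &&& b = 0) (hI : I = maskOf hard) (hne : I ≠ full)
    (hhard : AllHardB n hard (m ||| (1 <<< c)) b) : MWB (n + 1) m b := by
  intro M B hM hB
  have hcM : cellOf c ∉ M := by
    intro hmem
    rw [← hM c, hcm] at hmem
    exact absurd hmem (by simp)
  have hcB : cellOf c ∉ B := by
    intro hmem
    rw [← hB c, hcb] at hmem
    exact absurd hmem (by simp)
  refine MakerWinsIn.move n M B (cellOf c) (cellOf_mem_win hcN) hcM hcB ?_
  intro d _ _
  by_cases hd : ∃ i, I.testBit i = true ∧ cellOf i = d
  · obtain ⟨i, hi, rfl⟩ := hd
    rw [hI] at hi
    exact allHardB_of_testBit n hard _ b i hhard hi _ _ (hM.insert c) (hB.insert i)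
  · refine (chk_soundB l _ I U h (insert (cellOf c) M) B d (hM.insert c) ?_ ?_ hne).mono _ hdep
    · intro i hi hmem
      have h1 : b.testBit i = true := (hB i).mpr hmem
      have h2 : (U &&& b).testBit i = true := by rw [Nat.testBit_and, hi, h1]; rfl
      rw [hU] at h2
      simp at h2
    · intro i hi hid
      exact hd ⟨i, hi, hid⟩

end Vale.Agent.P062
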