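import Vale.Agent.P062.B.FirstReply
import Vale.Agent.P062.B.Nodes
import Vale.Agent.P062.Final

/-!
# Maker wins Snaky within 24 moves inside a 25 × 25 square, hence on every larger finite board
-/

namespace Vale.Agent.P062

theorem winsB_adjacent : MakerWinsIn (square 12) 23 {(0, 0)} {(1, 0)} := by
  have h := (PB.b5 {cellOf 275} {cellOf 276} (rep_single 275) (rep_single 276)).monoS
    win_subset_square
  have h275 : cellOf 275 = (0, 0) := by simp [cellOf, W, off]
  have h276 : cellOf 276 = (1, 0) := by simp [cellOf, W, off]
  rwa [h275, h276] at h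

/-- Maker wins from the empty board within 24 moves, all inside the square `[-12, 12]²`. -/
theorem makerWinsIn_empty : MakerWinsIn (square 12) 24 ∅ ∅ := by
  have h := winsB_adjacent
  refine MakerWinsIn.move 23 ∅ ∅ (0, 0) (by simp [square]) (by simp) (by simp) ?_
  intro d _ _
  have goal : MakerWinsIn (square 12) 23 {(0, 0)} {d} := by
    by_cases hd : d ∈ ({(1, 0), (-1, 0), (0, 1), (0, -1)} : Finset Cell)
    · have h01 : MakerWinsIn (square 12) 23 {(0, 0)} {((0 : ℤ), (1 : ℤ))} := by
        apply firstReplyB_of_image 23 true 1 1 (by simp) (by simp) (by intro x; simp [act])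
        simpa [act] using h
      simp only [Finset.mem_insert, Finset.mem_singleton] at hd
      rcases hd with rfl | rfl | rfl | rfl
      · exact h
      · apply firstReplyB_of_image 23 false (-1) 1 (by simp) (by simp) (by intro x; simp [act])
        simpa [act] using h
      · exact h01
      · apply firstReplyB_of_image 23 false 1 (-1) (by simp) (by simp) (by intro x; simp [act])
        simpa [act] using h01
    · exact (firstReplyB d hd).mono _ (by omega)
  simpa using goal

theorem mem_board {n : ℕ} {c : Cell} (h1 : 0 ≤ c.1) (h2 : c.1 < n) (h3 : 0 ≤ c.2) (h4 : c.2 < n) :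
    c ∈ board n := by
  obtain ⟨x, y⟩ := c
  simp only at h1 h2 h3 h4
  simp only [board, Finset.mem_image, Finset.mem_product, Finset.mem_range, Prod.mk.injEq,
    Prod.exists]
  exact ⟨x.toNat, y.toNat, ⟨by omega, by omega⟩, by omega, by omega⟩

/-- Maker wins on the `n × n` board for every `n ≥ 25`. -/
theorem makerWinsOn_board (n : ℕ) (hn : 25 ≤ n) : MakerWinsOn (board n) ∅ ∅ := by
  have h := MakerWinsIn.image' (S' := {c | c ∈ board n}) (fun x => x + (12, 12))
    (fun x => x + (-12, -12)) (by intro x; ext <;> simp) (by intro x; ext <;> simp)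
    (fun A hA => hA.image_translate (12, 12)) ?_ makerWinsIn_empty
  · rw [Finset.image_empty] at h
    exact h.toOn (fun c hc => hc)
  · intro c hc
    simp only [square, Set.mem_ofPred_eq] at hc
    apply mem_board <;> simp <;> omega

end Vale.Agent.P062
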