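import Vale.Agent.P062.B.Checker
import Vale.Agent.P062.Reduction

/-!
# Bounded version of the first-reply theorem
-/

namespace Vale.Agent.P062

theorem MakerWinsIn.monoS {S S' : Set Cell} (hS : ∀ c ∈ S, c ∈ S') {n : ℕ} {M B : Finset Cell}
    (h : MakerWinsIn S n M B) : MakerWinsIn S' n M B := by
  induction h with
  | done n M B A hA hsub => exact .done _ _ _ A hA hsub
  | move n M B c hc hM hB h ih => exact .move n M B c (hS c hc) hM hB ih

theorem win_subset_square : ∀ c ∈ win, c ∈ square 12 := by
  intro c hc
  simp only [win, square, Set.mem_ofPred_eq] at *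
  omega

theorem act_mem_square (s : Bool) (a b : ℤ) (ha : a = 1 ∨ a = -1) (hb : b = 1 ∨ b = -1) :
    ∀ c ∈ square 12, act s a b c ∈ square 12 := by
  intro c hc
  simp only [square, Set.mem_ofPred_eq] at *
  cases s <;> rcases ha with rfl | rfl <;> rcases hb with rfl | rfl <;> simp [act] <;> omega

theorem dep_allTrees : dep allTrees ≤ 16 := by decide +kernel

/-- Transport of a bounded first-reply statement along a symmetry fixing the origin. -/
theorem firstReplyB_of_image (n : ℕ) (s : Bool) (a b : ℤ) (ha : a = 1 ∨ a = -1)
    (hb : b = 1 ∨ b = -1) (hinv : ∀ x, act s a b (act s a b x) = x) (d : Cell)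
    (h : MakerWinsIn (square 12) n {(0, 0)} {act s a b d}) :
    MakerWinsIn (square 12) n {(0, 0)} {d} := by
  have h1 := MakerWinsIn.image' (S' := square 12) (act s a b) (act s a b) hinv hinv
    (fun A hA => hA.image_act s a b ha hb) (act_mem_square s a b ha hb) h
  rw [Finset.image_singleton, Finset.image_singleton, hinv d] at h1
  have h0 : act s a b (0, 0) = (0, 0) := by cases s <;> simp [act]
  rwa [h0] at h1

theorem firstReplyB_octant (d : Cell) (h2 : 0 ≤ d.2) (h12 : d.2 ≤ d.1) (hd : d ≠ (1, 0)) :
    MakerWinsIn (square 12) 16 {(0, 0)} {d} := by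
  have h := chk_soundB allTrees (1 <<< 275) interMask unionMask chk_allTrees {(0, 0)} ∅ d rep_origin
    (by simp) ?_ ?_
  · have h' := (h.mono _ dep_allTrees).monoS win_subset_square
    simpa using h'
  · intro i hi hid
    have hiN := chk_inter_lt _ _ _ _ chk_allTrees i hi
    have hc := octant_check i hiN hi
    obtain ⟨x, y⟩ := d
    simp only [cellOf, W, off, Prod.mk.injEq] at hid
    simp only [W] at hc
    simp only at h2 h12
    rcases hc with hc | hc | hc
    · omega
    · omega
    · apply hd
      rw [hc] at hid
      simp only [Prod.mk.injEq]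
      omega
  · intro hfull
    have h0 : interMask.testBit 277 = true := by rw [hfull]; exact full_testBit (by unfold N; omega)
    have h1 := octant_check 277 (by unfold N; omega) h0
    simp [W] at h1

theorem firstReplyB_quadrant (d : Cell) (h1 : 0 ≤ d.1) (h2 : 0 ≤ d.2) (hd : d ≠ (1, 0))
    (hd' : d ≠ (0, 1)) : MakerWinsIn (square 12) 16 {(0, 0)} {d} := by
  by_cases h12 : d.2 ≤ d.1
  · exact firstReplyB_octant d h2 h12 hd
  · apply firstReplyB_of_image 16 true 1 1 (by simp) (by simp) (by intro x; simp [act])
    apply firstReplyB_octant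
    · simpa [act] using h1
    · simp only [act, if_true, one_mul]
      omega
    · intro h
      apply hd'
      obtain ⟨x, y⟩ := d
      simp only [act, if_true, one_mul, Prod.mk.injEq] at h
      simp only [Prod.mk.injEq]
      omega

theorem firstReplyB_half (d : Cell) (h1 : 0 ≤ d.1) (hd : d ≠ (1, 0))
    (hd' : d ≠ (0, 1)) (hd'' : d ≠ (0, -1)) : MakerWinsIn (square 12) 16 {(0, 0)} {d} := by
  by_cases h2 : 0 ≤ d.2
  · exact firstReplyB_quadrant d h1 h2 hd hd'
  · apply firstReplyB_of_image 16 false 1 (-1) (by simp) (by simp) (by intro x; simp [act])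
    obtain ⟨x, y⟩ := d
    simp only [Prod.mk.injEq, ne_eq] at hd hd' hd''
    simp only at h1 h2
    apply firstReplyB_quadrant
    · simpa [act] using h1
    · simp only [act]
      simp
      omega
    · simp only [act]
      simp
      omega
    · simp only [act]
      simp
      omega

/-- After the first move of Maker at the origin, every reply of Breaker other than one of the four
edge-adjacent cells loses within 16 further moves of Maker. -/
theorem firstReplyB (d : Cell) (hd : d ∉ ({(1, 0), (-1, 0), (0, 1), (0, -1)} : Finset Cell)) :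
    MakerWinsIn (square 12) 16 {(0, 0)} {d} := by
  simp only [Finset.mem_insert, Finset.mem_singleton, not_or] at hd
  obtain ⟨hd1, hd2, hd3, hd4⟩ := hd
  by_cases h1 : 0 ≤ d.1
  · exact firstReplyB_half d h1 hd1 hd3 hd4
  · apply firstReplyB_of_image 16 false (-1) 1 (by simp) (by simp) (by intro x; simp [act])
    obtain ⟨x, y⟩ := d
    simp only [Prod.mk.injEq] at hd1 hd2 hd3 hd4
    simp only at h1
    apply firstReplyB_half
    · simp only [act]
      simp
      omega
    · simp only [act]
      simp
      omega
    · simp only [act]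
      simp
      omega
    · simp only [act]
      simp
      omega

end Vale.Agent.P062
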