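import Vale.Agent.P062.Game

/-!
# The Snaky game: bounded versions and finite boards (definitions)
-/

namespace Vale.Agent.P062

/-- The square of `(2 r + 1) × (2 r + 1)` cells centred at the origin. -/
def square (r : ℤ) : Set Cell := {c | -r ≤ c.1 ∧ c.1 ≤ r ∧ -r ≤ c.2 ∧ c.2 ≤ r}

/-- `MakerWinsIn S n M B`: on the infinite board, in the position where Maker owns `M`, Breaker
owns `B` and Maker is to move, Maker can force ownership of an allowed copy of Snaky by making at
most `n` further moves, all of them at cells of `S`, whatever cells of `ℤ × ℤ` Breaker claims. -/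
inductive MakerWinsIn (S : Set Cell) : ℕ → Finset Cell → Finset Cell → Prop
  | done (n : ℕ) (M B A : Finset Cell) (hA : IsCopy A) (h : A ⊆ M) : MakerWinsIn S n M B
  | move (n : ℕ) (M B : Finset Cell) (c : Cell) (hS : c ∈ S) (hM : c ∉ M) (hB : c ∉ B)
      (h : ∀ d : Cell, d ∉ insert c M → d ∉ B → MakerWinsIn S n (insert c M) (insert d B)) :
      MakerWinsIn S (n + 1) M B

/-- The `n × n` board: the cells `(x, y)` with `0 ≤ x < n` and `0 ≤ y < n`. -/
def board (n : ℕ) : Finset Cell :=
  (Finset.range n ×ˢ Finset.range n).image (fun p => ((p.1 : ℤ), (p.2 : ℤ)))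

/-- `MakerWinsOn Bd M B`: the game played on the finite board `Bd` (both players may only claim
unclaimed cells of `Bd`), Maker owning `M`, Breaker owning `B`, Maker to move.  Either Maker
already owns an allowed copy, or Maker has a legal move `c` such that the position after every
legal reply `d` is again winning and, in case the board is full after the move `c` (so that there
is no reply), Maker owns an allowed copy. -/
inductive MakerWinsOn (Bd : Finset Cell) : Finset Cell → Finset Cell → Prop
  | done (M B A : Finset Cell) (hA : IsCopy A) (h : A ⊆ M) : MakerWinsOn Bd M B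
  | move (M B : Finset Cell) (c : Cell) (hc : c ∈ Bd) (hM : c ∉ M) (hB : c ∉ B)
      (hfull : (∀ d ∈ Bd, d ∈ insert c M ∨ d ∈ B) → ∃ A, IsCopy A ∧ A ⊆ insert c M)
      (h : ∀ d ∈ Bd, d ∉ insert c M → d ∉ B → MakerWinsOn Bd (insert c M) (insert d B)) :
      MakerWinsOn Bd M B

end Vale.Agent.P062
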